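import Mathlib

/-!
Definitions for P116 (Koebe's circle-domain conjecture) on the Riemann sphere `OnePoint ℂ`.
-/

namespace Vale.Agent.Lib.P116

open Set Topology OnePoint

/-- The Riemann sphere. -/
abbrev Sphere : Type := OnePoint ℂ

/-- A domain: a nonempty connected open subset of the sphere. -/
def IsDomain (G : Set Sphere) : Prop := IsOpen G ∧ IsConnected G

/-- A closed round disk: the image of the closed unit disk under a Moebius transformation. -/
def IsRoundDisk (D : Set Sphere) : Prop :=
  ∃ g : GL (Fin 2) ℂ, D = (fun z : Sphere => g • z) '' ((fun z : ℂ => (z : Sphere)) '' Metric.closedBall 0 1)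

/-- A circle domain: a domain each of whose complementary components is a point or a closed
round disk. -/
def IsCircleDomain (G : Set Sphere) : Prop :=
  IsDomain G ∧ ∀ x ∈ Gᶜ, connectedComponentIn Gᶜ x = {x} ∨ IsRoundDisk (connectedComponentIn Gᶜ x)

/-- The inversion `z ↦ 1 / z` of the sphere, exchanging `0` and `∞`. -/
noncomputable def sphInv : Sphere → Sphere
  | ∞ => ((0 : ℂ) : Sphere)
  | OnePoint.some z => if z = 0 then ∞ else ((z⁻¹ : ℂ) : Sphere)

/-- The coordinate of a finite point (and `0` at `∞`). -/
def toC : Sphere → ℂ
  | ∞ => 0
  | OnePoint.some z => z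

/-- The standard chart around `p`, evaluated at `q`: the identity chart if `p` is finite, the
chart `z ↦ 1 / z` if `p = ∞`. -/
noncomputable def chart : Sphere → Sphere → ℂ
  | ∞, q => toC (sphInv q)
  | OnePoint.some _, q => toC q

/-- The inverse of the standard chart around `p`. -/
noncomputable def chartInv : Sphere → ℂ → Sphere
  | ∞, z => sphInv (z : Sphere)
  | OnePoint.some _, z => (z : Sphere)

/-- `f` is holomorphic at `p` in the standard charts: it is continuous at `p`, and read in the
standard charts around `p` and `f p` it is complex differentiable at the coordinate of `p`. -/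
def HolAt (f : Sphere → Sphere) (p : Sphere) : Prop :=
  ContinuousAt f p ∧ DifferentiableAt ℂ (fun z : ℂ => chart (f p) (f (chartInv p z))) (chart p p)

/-- `G` and `W` are conformally equivalent: there are mutually inverse bijections between them,
both holomorphic in the standard charts. -/
def ConformalEquiv (G W : Set Sphere) : Prop :=
  ∃ f g : Sphere → Sphere, MapsTo f G W ∧ MapsTo g W G ∧ (∀ x ∈ G, g (f x) = x) ∧
    (∀ y ∈ W, f (g y) = y) ∧ (∀ x ∈ G, HolAt f x) ∧ (∀ y ∈ W, HolAt g y)

/-- `G` satisfies Koebe's conjecture: it is conformally equivalent to a circle domain. -/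
def Uniformizable (G : Set Sphere) : Prop := ∃ W : Set Sphere, IsCircleDomain W ∧ ConformalEquiv G W

/-- The union of the nondegenerate (more than one point) complementary components of `G`. -/
def nondeg (G : Set Sphere) : Set Sphere := {x | x ∈ Gᶜ ∧ connectedComponentIn Gᶜ x ≠ {x}}

end Vale.Agent.Lib.P116
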