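import Mathlib
import Vale.Agent.Lib.P116.Defs

/-!
Topological lemmas for P116.
-/

namespace Vale.Agent.Lib.P116

open Set Topology OnePoint

section General

variable {S : Type*} [TopologicalSpace S] [T2Space S] [CompactSpace S]

/-- In a compact Hausdorff space, if `Y` is closed, `W` is open and `Y ∩ W` is totally
disconnected, then every point of `Y ∩ W` is a connected component of `Y`. -/
theorem component_singleton {W Y : Set S} (hW : IsOpen W) (hY : IsClosed Y)
    (htd : IsTotallyDisconnected (Y ∩ W)) {y : S} (hy : y ∈ Y ∩ W) :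
    connectedComponentIn Y y = {y} := by
  obtain ⟨K, hK, hyK, hKW⟩ := exists_compact_subset hW hy.2
  set E : Set S := Y ∩ K with hE
  have hEc : IsCompact E := hK.inter_left hY
  have hEtd : IsTotallyDisconnected E :=
    fun t ht hpre => htd t (ht.trans (inter_subset_inter_right _ hKW)) hpre
  have : CompactSpace E := isCompact_iff_compactSpace.1 hEc
  have : TotallyDisconnectedSpace E := totallyDisconnectedSpace_subtype_iff.2 hEtd
  have hyE : y ∈ E := ⟨hy.1, interior_subset hyK⟩
  obtain ⟨V, hVclopen, hyV, hVU⟩ := compact_exists_isClopen_in_isOpen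
    (X := E) (x := ⟨y, hyE⟩) (U := ((↑) : E → S) ⁻¹' interior K)
    (isOpen_interior.preimage continuous_subtype_val) hyK
  have hV'closed : IsClosed (((↑) : E → S) '' V) :=
    hEc.isClosed.isClosedEmbedding_subtypeVal.isClosedMap _ hVclopen.1
  obtain ⟨O, hO, hOV⟩ := isOpen_induced_iff.1 hVclopen.2
  set Z := connectedComponentIn Y y with hZ
  have hZpre : IsPreconnected Z := isPreconnected_connectedComponentIn
  have hZY : Z ⊆ Y := connectedComponentIn_subset Y y
  have hyZ : y ∈ Z := mem_connectedComponentIn hy.1
  have hZV : Z ⊆ ((↑) : E → S) '' V := by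
    by_contra hcon
    obtain ⟨z0, hz0Z, hz0V⟩ := not_subset.1 hcon
    have := hZpre (O ∩ interior K) (((↑) : E → S) '' V)ᶜ (hO.inter isOpen_interior)
      hV'closed.isOpen_compl ?_ ⟨y, hyZ, ?_, hyK⟩ ⟨z0, hz0Z, hz0V⟩
    · obtain ⟨z, hzZ, ⟨hzO, hzK⟩, hzV⟩ := this
      apply hzV
      have hzE : z ∈ E := ⟨hZY hzZ, interior_subset hzK⟩
      refine ⟨⟨z, hzE⟩, ?_, rfl⟩
      rw [← hOV]
      exact hzO
    · intro z _
      by_cases hzV : z ∈ ((↑) : E → S) '' V
      · left
        obtain ⟨e, heV, rfl⟩ := hzV
        refine ⟨?_, hVU heV⟩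
        have : e ∈ ((↑) : E → S) ⁻¹' O := by rw [hOV]; exact heV
        exact this
      · right; exact hzV
    · have : (⟨y, hyE⟩ : E) ∈ ((↑) : E → S) ⁻¹' O := by rw [hOV]; exact hyV
      exact this
  have hZE : Z ⊆ E := by
    intro z hz
    obtain ⟨e, _, rfl⟩ := hZV hz
    exact e.2
  have hsub : Z.Subsingleton := hEtd Z hZE hZpre
  exact hsub.eq_singleton_of_mem hyZ

/-- Under the same hypotheses, the components of `Y` through points outside `W` are the
components of `Y \ W`. -/
theorem component_eq_diff {W Y : Set S} (hW : IsOpen W) (hY : IsClosed Y)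
    (htd : IsTotallyDisconnected (Y ∩ W)) {y : S} (hy : y ∈ Y \ W) :
    connectedComponentIn Y y = connectedComponentIn (Y \ W) y := by
  apply Subset.antisymm
  · apply IsPreconnected.subset_connectedComponentIn isPreconnected_connectedComponentIn
      (mem_connectedComponentIn hy.1)
    intro z hz
    refine ⟨connectedComponentIn_subset Y y hz, fun hzW => ?_⟩
    have h1 : connectedComponentIn Y z = {z} :=
      component_singleton hW hY htd ⟨connectedComponentIn_subset Y y hz, hzW⟩
    have h2 : connectedComponentIn Y y = connectedComponentIn Y z := connectedComponentIn_eq hz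
    have h3 : y ∈ connectedComponentIn Y z := h2 ▸ mem_connectedComponentIn hy.1
    rw [h1, mem_singleton_iff] at h3
    exact hy.2 (h3 ▸ hzW)
  · exact connectedComponentIn_mono y sdiff_subset

end General

end Vale.Agent.Lib.P116
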