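import Mathlib
import Vale.Agent.Lib.P116.Defs
import Vale.Agent.Lib.P116.Topology

/-!
Removing totally disconnected sets from Koebe-uniformizable domains.
-/

namespace Vale.Agent.Lib.P116

open Set Topology OnePoint

/-- If `G` is a domain contained in a uniformizable set `V` and `V \ G` is totally disconnected,
then `G` is uniformizable. -/
theorem uniformizable_of_dust {G V : Set Sphere} (hG : IsDomain G) (hGV : G ⊆ V)
    (htd : IsTotallyDisconnected (V \ G)) (hU : Uniformizable V) : Uniformizable G := by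
  obtain ⟨W, ⟨⟨hWo, hWc⟩, hWcomp⟩, f, g, hf, hg, hgf, hfg, hfh, hgh⟩ := hU
  have hfc : ContinuousOn f G := fun x hx => (hfh x (hGV hx)).1.continuousWithinAt
  have hgc : ContinuousOn g W := fun y hy => (hgh y hy).1.continuousWithinAt
  have himg : f '' G = W ∩ g ⁻¹' G := by
    ext y
    constructor
    · rintro ⟨x, hx, rfl⟩
      exact ⟨hf (hGV hx), by rw [mem_preimage, hgf x (hGV hx)]; exact hx⟩
    · rintro ⟨hyW, hyG⟩
      exact ⟨g y, hyG, hfg y hyW⟩
  have hopen : IsOpen (f '' G) := by
    rw [himg]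
    exact hgc.isOpen_inter_preimage hWo hG.1
  have hsubW : f '' G ⊆ W := by rw [himg]; exact inter_subset_left
  have hYclosed : IsClosed (f '' G)ᶜ := hopen.isClosed_compl
  have hYtd : IsTotallyDisconnected ((f '' G)ᶜ ∩ W) := by
    intro A hA hApre
    have hAW : A ⊆ W := fun a ha => (hA ha).2
    have h1 : IsPreconnected (g '' A) := hApre.image g (hgc.mono hAW)
    have h2 : g '' A ⊆ V \ G := by
      rintro _ ⟨a, ha, rfl⟩
      refine ⟨hg (hAW ha), fun hga => (hA ha).1 ?_⟩
      exact ⟨g a, hga, hfg a (hAW ha)⟩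
    have h3 : (g '' A).Subsingleton := htd _ h2 h1
    intro a ha b hb
    have := h3 (mem_image_of_mem g ha) (mem_image_of_mem g hb)
    rw [← hfg a (hAW ha), ← hfg b (hAW hb), this]
  have hYdiff : (f '' G)ᶜ \ W = Wᶜ := by
    ext y
    constructor
    · rintro ⟨_, h⟩; exact h
    · intro h; exact ⟨fun hy => h (hsubW hy), h⟩
  refine ⟨f '' G, ⟨⟨hopen, hG.2.image f hfc⟩, ?_⟩, f, g, mapsTo_image f G, ?_, ?_, ?_, ?_, ?_⟩
  · intro y hy
    by_cases hyW : y ∈ W
    · left
      exact component_singleton hWo hYclosed hYtd ⟨hy, hyW⟩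
    · rw [component_eq_diff hWo hYclosed hYtd ⟨hy, hyW⟩, hYdiff]
      exact hWcomp y hyW
  · rintro _ ⟨x, hx, rfl⟩
    rw [hgf x (hGV hx)]; exact hx
  · intro x hx; exact hgf x (hGV hx)
  · intro y hy; exact hfg y (hsubW hy)
  · intro x hx; exact hfh x (hGV hx)
  · intro y hy; exact hgh y (hsubW hy)

/-- Every nonempty open subset of the sphere contains a preconnected set with two points. -/
theorem exists_nontrivial_preconnected {U : Set Sphere} (hU : IsOpen U) (hne : U.Nonempty) :
    ∃ A ⊆ U, IsPreconnected A ∧ ∃ a ∈ A, ∃ b ∈ A, a ≠ b := by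
  obtain ⟨z, hz⟩ := (OnePoint.denseRange_coe (X := ℂ)).exists_mem_open hU hne
  have hV : IsOpen (((↑) : ℂ → Sphere) ⁻¹' U) := hU.preimage OnePoint.continuous_coe
  obtain ⟨ε, hε, hball⟩ := Metric.isOpen_iff.1 hV z hz
  refine ⟨((↑) : ℂ → Sphere) '' Metric.ball z ε, ?_, ?_, (z : Sphere), ?_,
    ((z + (ε / 2 : ℝ) : ℂ) : Sphere), ?_, ?_⟩
  · rintro _ ⟨w, hw, rfl⟩; exact hball hw
  · exact (convex_ball z ε).isPreconnected.image _ OnePoint.continuous_coe.continuousOn
  · exact ⟨z, Metric.mem_ball_self hε, rfl⟩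
  · refine ⟨_, ?_, rfl⟩
    rw [Metric.mem_ball, dist_eq_norm]
    simp only [add_sub_cancel_left, Complex.norm_real, Real.norm_eq_abs]
    rw [abs_of_pos (by positivity)]
    linarith
  · intro h
    have := OnePoint.coe_injective h
    have h2 : ((ε / 2 : ℝ) : ℂ) = 0 := by
      have h3 : z + ((ε / 2 : ℝ) : ℂ) = z + 0 := by rw [add_zero]; exact this.symm
      exact add_left_cancel h3
    rw [Complex.ofReal_eq_zero] at h2
    linarith

theorem nondeg_subset_compl (G : Set Sphere) : nondeg G ⊆ Gᶜ := fun _ hx => hx.1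

theorem subset_nondeg {G A : Set Sphere} (hA : IsPreconnected A) (hAG : A ⊆ Gᶜ)
    {a b : Sphere} (ha : a ∈ A) (hb : b ∈ A) (hab : a ≠ b) : A ⊆ nondeg G := by
  intro x hx
  refine ⟨hAG hx, fun h => hab ?_⟩
  have hsub : A ⊆ connectedComponentIn Gᶜ x := hA.subset_connectedComponentIn hx hAG
  rw [h] at hsub
  rw [mem_singleton_iff.1 (hsub ha), mem_singleton_iff.1 (hsub hb)]

theorem closure_nondeg_subset {G : Set Sphere} (hG : IsOpen G) : closure (nondeg G) ⊆ Gᶜ :=
  closure_minimal (nondeg_subset_compl G) hG.isClosed_compl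

theorem subset_core_compl {G : Set Sphere} (hG : IsOpen G) : G ⊆ (closure (nondeg G))ᶜ :=
  fun _ hx hN => closure_nondeg_subset hG hN hx

theorem core_compl_subset_closure (G : Set Sphere) : (closure (nondeg G))ᶜ ⊆ closure G := by
  intro x hx
  by_contra hxG
  have hUo : IsOpen ((closure G)ᶜ ∩ (closure (nondeg G))ᶜ) :=
    isClosed_closure.isOpen_compl.inter isClosed_closure.isOpen_compl
  obtain ⟨A, hAU, hApre, a, ha, b, hb, hab⟩ := exists_nontrivial_preconnected hUo ⟨x, hxG, hx⟩
  have hAG : A ⊆ Gᶜ := fun y hy hyG => (hAU hy).1 (subset_closure hyG)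
  exact (hAU ha).2 (subset_closure (subset_nondeg hApre hAG ha hb hab ha))

theorem isDomain_core_compl {G : Set Sphere} (hG : IsDomain G) :
    IsDomain (closure (nondeg G))ᶜ :=
  ⟨isClosed_closure.isOpen_compl,
    hG.2.subset_closure (subset_core_compl hG.1) (core_compl_subset_closure G)⟩

theorem isTotallyDisconnected_core_diff (G : Set Sphere) :
    IsTotallyDisconnected ((closure (nondeg G))ᶜ \ G) := by
  intro A hA hApre a ha b hb
  by_contra hab
  have hAG : A ⊆ Gᶜ := fun y hy => (hA hy).2
  exact (hA ha).1 (subset_closure (subset_nondeg hApre hAG ha hb hab ha))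

theorem uniformizable_of_core {G : Set Sphere} (hG : IsDomain G)
    (hU : Uniformizable (closure (nondeg G))ᶜ) : Uniformizable G :=
  uniformizable_of_dust hG (subset_core_compl hG.1) (isTotallyDisconnected_core_diff G) hU

theorem nondeg_subset_nondeg_core (G : Set Sphere) :
    nondeg G ⊆ nondeg (closure (nondeg G))ᶜ := by
  intro x hx
  have hcomp : connectedComponentIn Gᶜ x ⊆ nondeg G := by
    obtain ⟨y, hy, hyx⟩ : ∃ y ∈ connectedComponentIn Gᶜ x, y ≠ x := by
      by_contra hcon
      push Not at hcon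
      apply hx.2
      apply Subset.antisymm
      · intro y hy; exact hcon y hy
      · intro y hy
        rw [mem_singleton_iff.1 hy]
        exact mem_connectedComponentIn hx.1
    exact subset_nondeg isPreconnected_connectedComponentIn (connectedComponentIn_subset _ _)
      hy (mem_connectedComponentIn hx.1) hyx
  have hsub : connectedComponentIn Gᶜ x ⊆ ((closure (nondeg G))ᶜ)ᶜ := by
    rw [compl_compl]
    exact hcomp.trans subset_closure
  refine ⟨hsub (mem_connectedComponentIn hx.1), fun h => hx.2 ?_⟩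
  have h2 : connectedComponentIn Gᶜ x ⊆ connectedComponentIn ((closure (nondeg G))ᶜ)ᶜ x :=
    isPreconnected_connectedComponentIn.subset_connectedComponentIn
      (mem_connectedComponentIn hx.1) hsub
  rw [h] at h2
  apply Subset.antisymm h2
  intro y hy
  rw [mem_singleton_iff.1 hy]
  exact mem_connectedComponentIn hx.1

theorem closure_nondeg_core (G : Set Sphere) :
    closure (nondeg (closure (nondeg G))ᶜ) = ((closure (nondeg G))ᶜ)ᶜ := by
  apply Subset.antisymm
  · exact closure_nondeg_subset isClosed_closure.isOpen_compl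
  · rw [compl_compl]
    exact closure_mono (nondeg_subset_nondeg_core G)

end Vale.Agent.Lib.P116
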